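import Vale.Agent.P333.H705.GrDefs

set_option autoImplicit false

/-!
P333: runs of the greedy algorithm in which every step is forced.
-/

namespace Vale.Agent.P333.H354

/-! ### Boolean checks (after helper984) -/

/-- is the first list a prefix of the second one -/
def isPref : List ℕ → List ℕ → Bool
  | [], _ => true
  | _ :: _, [] => false
  | a :: x, b :: y => Nat.beq a b && isPref x y

theorem isPref_iff : ∀ x y : List ℕ, isPref x y = true ↔ x <+: y
  | [], y => by simp [isPref]
  | a :: x, [] => by simp [isPref]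
  | a :: x, b :: y => by
      have ih := isPref_iff x y
      simp only [isPref, Bool.and_eq_true, Nat.beq_eq, List.cons_prefix_cons, ih]

/-- no suffix of the list (of length `n`) longer than `k` is a prefix of `w` -/
def noOv (k : ℕ) (w : List ℕ) : List ℕ → ℕ → Bool
  | [], _ => true
  | a :: z, n => Nat.ble n k || (not (isPref (a :: z) w) && noOv k w z (n - 1))

theorem noOv_spec (k : ℕ) (w : List ℕ) : ∀ (z : List ℕ) (n : ℕ), n = z.length →
    noOv k w z n = true → ∀ u : List ℕ, u <:+ z → u <+: w → u.length ≤ k := by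
  intro z
  induction z with
  | nil =>
      intro n _ _ u hu _
      have : u = [] := List.suffix_nil.1 hu
      subst this
      simp
  | cons a z ih =>
      intro n hn h u hu hw
      simp only [noOv, Bool.or_eq_true, Bool.and_eq_true] at h
      rcases h with h | ⟨h1, h2⟩
      · have h3 : n ≤ k := Nat.le_of_ble_eq_true h
        have h4 := hu.length_le
        omega
      · rcases List.suffix_cons_iff.1 hu with h3 | h3
        · subst h3
          have h5 := (isPref_iff _ _).2 hw
          rw [h5] at h1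
          simp at h1
        · refine ih (n - 1) ?_ h2 u h3 hw
          simp at hn
          omega

/-- is `s` a substring of the second list -/
def isInf (s : List ℕ) : List ℕ → Bool
  | [] => isPref s []
  | a :: t => isPref s (a :: t) || isInf s t

theorem isInf_iff (s : List ℕ) : ∀ t : List ℕ, isInf s t = true ↔ s <:+: t
  | [] => by
      rw [isInf, isPref_iff]
      simp
  | a :: t => by
      have ih := isInf_iff s t
      rw [isInf, Bool.or_eq_true, isPref_iff, ih, List.infix_cons_iff]

/-- equality of lists -/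
def eqB (z w : List ℕ) : Bool := isPref z w && isPref w z

theorem eqB_spec {z w : List ℕ} (h : eqB z w = true) : z = w := by
  unfold eqB at h
  rw [Bool.and_eq_true, isPref_iff, isPref_iff] at h
  exact h.1.eq_of_length (le_antisymm h.1.length_le h.2.length_le)

/-- all overlaps of distinct members, except `x` with `y`, are at most `k` -/
def only (F : List (List ℕ)) (x y : List ℕ) (k : ℕ) : Bool :=
  F.all fun z => F.all fun w => noOv k w z z.length || eqB z w || (eqB z x && eqB w y)

theorem only_spec {F : List (List ℕ)} {x y : List ℕ} {k : ℕ} (h : only F x y k = true)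
    {z w : List ℕ} (hz : z ∈ F) (hw : w ∈ F) (hne : z ≠ w) (hxy : ¬ (z = x ∧ w = y))
    {u : List ℕ} (h1 : u <:+ z) (h2 : u <+: w) : u.length ≤ k := by
  unfold only at h
  rw [List.all_eq_true] at h
  have h3 := h z hz
  rw [List.all_eq_true] at h3
  have h4 := h3 w hw
  rw [Bool.or_eq_true, Bool.or_eq_true, Bool.and_eq_true] at h4
  rcases h4 with (h5 | h5) | ⟨h5, h6⟩
  · exact noOv_spec k w z _ rfl h5 u h1 h2
  · exact absurd (eqB_spec h5) hne
  · exact absurd ⟨eqB_spec h5, eqB_spec h6⟩ hxy

/-- no member is a substring of another member -/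
def free (F : List (List ℕ)) : Bool :=
  F.all fun z => F.all fun w => eqB z w || not (isInf z w)

theorem free_spec {F : List (List ℕ)} (h : free F = true) {z w : List ℕ} (hz : z ∈ F)
    (hw : w ∈ F) (h1 : z <:+: w) : z = w := by
  unfold free at h
  rw [List.all_eq_true] at h
  have h3 := h z hz
  rw [List.all_eq_true] at h3
  have h4 := h3 w hw
  rw [Bool.or_eq_true] at h4
  rcases h4 with h5 | h5
  · exact eqB_spec h5
  · rw [(isInf_iff z w).2 h1] at h5
    simp at h5

/-! ### Forced steps -/

theorem overlap_of {x y : List ℕ} {k : ℕ} (hky : k ≤ y.length)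
    (hk : x.drop (x.length - k) = y.take k) (hg : noOv k y x x.length = true) :
    Greedy.IsOverlap x y k := by
  refine ⟨⟨y.take k, ?_, ?_, ?_⟩, ?_⟩
  · rw [List.length_take]
    omega
  · rw [← hk]
    exact List.drop_suffix _ _
  · exact List.take_prefix _ _
  · intro l hl
    obtain ⟨u, hu, h1, h2⟩ := hl
    rw [← hu]
    exact noOv_spec k y x _ rfl hg u h1 h2

/-- a step is forced if only one pair has a longest overlap -/
theorem uniq_step {F F' : List (List ℕ)} {x y m : List ℕ} {R : List (List ℕ)} {k : ℕ}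
    (hp : F.Perm (x :: y :: R)) (hnd : (x :: y :: R).Nodup)
    (hky : k + 1 ≤ y.length) (hk : x.drop (x.length - (k + 1)) = y.take (k + 1))
    (hg : noOv (k + 1) y x x.length = true) (ho : only (x :: y :: R) x y k = true)
    (hm : x.take (x.length - (k + 1)) ++ y = m)
    (hs : Greedy.Step F F') : F'.Perm (m :: R) := by
  obtain ⟨x', y', R', k', hp', hov', hmax', rfl⟩ := hs
  have hov := overlap_of hky hk hg
  have hle := hmax' x y R (k + 1) hp hov
  have hq : (x' :: y' :: R').Perm (x :: y :: R) := hp'.symm.trans hp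
  have hnd' : (x' :: y' :: R').Nodup := hq.nodup_iff.2 hnd
  have hx' : x' ∈ x :: y :: R := hq.mem_iff.1 List.mem_cons_self
  have hy' : y' ∈ x :: y :: R := hq.mem_iff.1 (List.mem_cons_of_mem _ List.mem_cons_self)
  have hne : x' ≠ y' := by
    intro h
    rw [List.nodup_cons] at hnd'
    exact hnd'.1 (by rw [h]; exact List.mem_cons_self)
  by_cases hxy : x' = x ∧ y' = y
  · obtain ⟨rfl, rfl⟩ := hxy
    have hkk : k' = k + 1 := hov'.unique hov
    subst hkk
    rw [hm]
    exact (hq.cons_inv.cons_inv).cons _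
  · exfalso
    obtain ⟨u, hu, h1, h2⟩ := hov'.1
    have := only_spec ho hx' hy' hne hxy h1 h2
    omega

/-- all greedy strings of the family have length `n` -/
def All (n : ℕ) (L : List (List ℕ)) : Prop :=
  ∀ F t, F.Perm L → Relation.ReflTransGen Greedy.Step F [t] → t.length = n

theorem all_step {n : ℕ} {L : List (List ℕ)} (x y m : List ℕ) (R : List (List ℕ)) (k : ℕ)
    (hp : L.Perm (x :: y :: R)) (hnd : (x :: y :: R).Nodup)
    (hky : k + 1 ≤ y.length) (hk : x.drop (x.length - (k + 1)) = y.take (k + 1))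
    (hg : noOv (k + 1) y x x.length = true) (ho : only (x :: y :: R) x y k = true)
    (hm : x.take (x.length - (k + 1)) ++ y = m) (h : All n (m :: R)) : All n L := by
  intro F t hF hr
  rcases Relation.ReflTransGen.cases_head hr with h1 | ⟨F', h1, h2⟩
  · have h3 := (hF.trans hp).length_eq
    rw [h1] at h3
    simp at h3
  · exact h F' t (uniq_step (hF.trans hp) hnd hky hk hg ho hm h1) h2

/-! ### The last steps: all overlaps are empty -/

theorem suffix_app {u z w : List ℕ} (h : u <:+ z ++ w) :
    u <:+ w ∨ ∃ u', u = u' ++ w ∧ u' <:+ z := by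
  obtain ⟨s, hs⟩ := h
  rcases List.append_eq_append_iff.1 hs with ⟨a, h1, h2⟩ | ⟨c, h1, h2⟩
  · exact Or.inr ⟨a, h2, ⟨s, h1.symm⟩⟩
  · exact Or.inl ⟨c, h2.symm⟩

theorem prefix_app {u z w : List ℕ} (h : u <+: z ++ w) :
    u <+: z ∨ ∃ u', u = z ++ u' ∧ u' <+: w := by
  obtain ⟨s, hs⟩ := h
  rcases List.append_eq_append_iff.1 hs with ⟨a, h1, h2⟩ | ⟨c, h1, h2⟩
  · exact Or.inl ⟨a, h1.symm⟩
  · exact Or.inr ⟨c, h1, ⟨s, h2.symm⟩⟩

theorem infix_app {v z w : List ℕ} (h : v <:+: z ++ w) :
    v <:+: z ∨ v <:+: w ∨ ∃ t₁ t₂, v = t₁ ++ t₂ ∧ t₁ <:+ z ∧ t₂ <+: w := by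
  obtain ⟨s, e, hs⟩ := h
  have h1 : (s ++ v) <+: z ++ w := ⟨e, hs⟩
  rcases prefix_app h1 with h2 | ⟨u', h2, h3⟩
  · exact Or.inl ((List.suffix_append s v).isInfix.trans h2.isInfix)
  · have h4 : v <:+ z ++ u' := ⟨s, h2⟩
    rcases suffix_app h4 with h5 | ⟨t, h5, h6⟩
    · exact Or.inr (Or.inl (h5.isInfix.trans h3.isInfix))
    · exact Or.inr (Or.inr ⟨t, u', h5, h6, h3⟩)

/-- the members are distinct, no one is a substring of another one, all overlaps are empty -/
def Zero (L : List (List ℕ)) : Prop :=
  ∀ z w R, L.Perm (z :: w :: R) → (∀ u, u <:+ z → u <+: w → u = []) ∧ ¬ z <:+: w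

theorem zero_perm {L L' : List (List ℕ)} (h : L.Perm L') (hz : Zero L) : Zero L' :=
  fun z w R hp => hz z w R (h.trans hp)

theorem zero_merge {z w : List ℕ} {R : List (List ℕ)} (h : Zero (z :: w :: R)) :
    Zero ((z ++ w) :: R) := by
  -- facts for a member of `R`
  have key : ∀ v R', R.Perm (v :: R') →
      ((∀ u, u <:+ z → u <+: v → u = []) ∧ ¬ z <:+: v) ∧
      ((∀ u, u <:+ v → u <+: z → u = []) ∧ ¬ v <:+: z) ∧
      ((∀ u, u <:+ w → u <+: v → u = []) ∧ ¬ w <:+: v) ∧
      ((∀ u, u <:+ v → u <+: w → u = []) ∧ ¬ v <:+: w) := by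
    intro v R' hv
    have p0 : (z :: w :: R).Perm (z :: w :: v :: R') := (hv.cons w).cons z
    refine ⟨h z v (w :: R') (p0.trans ((List.Perm.swap v w R').cons z)), h v z (w :: R') ?_,
      h w v (z :: R') ?_, h v w (z :: R') ?_⟩
    · exact (p0.trans ((List.Perm.swap v w R').cons z)).trans (List.Perm.swap v z _)
    · exact (p0.trans (List.Perm.swap w z _)).trans ((List.Perm.swap v z R').cons w)
    · exact ((p0.trans (List.Perm.swap w z _)).trans ((List.Perm.swap v z R').cons w)).trans
        (List.Perm.swap v w _)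
  -- the new string against a member
  have new1 : ∀ v R', R.Perm (v :: R') →
      (∀ u, u <:+ z ++ w → u <+: v → u = []) ∧ ¬ (z ++ w) <:+: v := by
    intro v R' hv
    obtain ⟨k1, k2, k3, k4⟩ := key v R' hv
    refine ⟨fun u h1 h2 => ?_, fun h1 => k1.2 ((List.prefix_append z w).isInfix.trans h1)⟩
    rcases suffix_app h1 with h3 | ⟨u', rfl, h3⟩
    · exact k3.1 u h3 h2
    · have h4 : u' = [] := k1.1 u' h3 ((List.prefix_append u' w).trans h2)
      subst h4
      exact k3.1 _ (List.suffix_refl _) h2
  have new2 : ∀ v R', R.Perm (v :: R') →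
      (∀ u, u <:+ v → u <+: z ++ w → u = []) ∧ ¬ v <:+: (z ++ w) := by
    intro v R' hv
    obtain ⟨k1, k2, k3, k4⟩ := key v R' hv
    refine ⟨fun u h1 h2 => ?_, fun h1 => ?_⟩
    · rcases prefix_app h2 with h3 | ⟨u', rfl, h3⟩
      · exact k2.1 u h1 h3
      · exact absurd ((List.prefix_append z u').isInfix.trans h1.isInfix) k1.2
    · rcases infix_app h1 with h2 | h2 | ⟨t₁, t₂, rfl, h2, h3⟩
      · exact k2.2 h2
      · exact k4.2 h2
      · have h4 : t₁ = [] := k1.1 t₁ h2 (List.prefix_append _ _)
        subst h4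
        exact k4.2 h3.isInfix
  intro a b R1 hp
  by_cases ha : a = z ++ w
  · subst ha
    exact new1 b R1 hp.cons_inv
  by_cases hb : b = z ++ w
  · subst hb
    exact new2 a R1 (hp.trans (List.Perm.swap _ _ _)).cons_inv
  · have ha1 : a ∈ (z ++ w) :: R := hp.mem_iff.2 List.mem_cons_self
    have ha2 : a ∈ R := by
      rcases List.mem_cons.1 ha1 with h1 | h1
      · exact absurd h1 ha
      · exact h1
    obtain ⟨s, t, rfl⟩ := List.append_of_mem ha2
    have hR : (s ++ a :: t).Perm (a :: (s ++ t)) := List.perm_middle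
    have h2 : ((z ++ w) :: (s ++ t)).Perm (b :: R1) :=
      (((hp.symm.trans (hR.cons _)).trans (List.Perm.swap _ _ _)).symm).cons_inv
    have hb1 : b ∈ (z ++ w) :: (s ++ t) := h2.mem_iff.2 List.mem_cons_self
    have hb2 : b ∈ s ++ t := by
      rcases List.mem_cons.1 hb1 with h1 | h1
      · exact absurd h1 hb
      · exact h1
    obtain ⟨s', t', hst⟩ := List.append_of_mem hb2
    refine h a b (z :: w :: (s' ++ t')) ?_
    have h3 : (s ++ t).Perm (b :: (s' ++ t')) := by
      rw [hst]
      exact List.perm_middle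
    have h4 : (s ++ a :: t).Perm (a :: b :: (s' ++ t')) := hR.trans (h3.cons a)
    refine ((h4.cons w).cons z).trans ?_
    have e1 : (z :: w :: a :: b :: (s' ++ t')).Perm (z :: a :: w :: b :: (s' ++ t')) :=
      (List.Perm.swap a w _).cons z
    have e2 : (z :: a :: w :: b :: (s' ++ t')).Perm (a :: z :: w :: b :: (s' ++ t')) :=
      List.Perm.swap a z _
    have e3 : (a :: z :: w :: b :: (s' ++ t')).Perm (a :: z :: b :: w :: (s' ++ t')) :=
      ((List.Perm.swap b w _).cons z).cons a
    have e4 : (a :: z :: b :: w :: (s' ++ t')).Perm (a :: b :: z :: w :: (s' ++ t')) :=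
      (List.Perm.swap b z _).cons a
    exact ((e1.trans e2).trans e3).trans e4

theorem zero_run : ∀ (N : ℕ) (F : List (List ℕ)) (t : List ℕ), F.length = N → Zero F →
    Relation.ReflTransGen Greedy.Step F [t] → t.length = (F.map List.length).sum := by
  intro N
  induction N with
  | zero =>
    intro F t hN hZ hr
    rcases Relation.ReflTransGen.cases_head hr with h1 | ⟨F', h1, h2⟩
    · rw [h1] at hN
      simp at hN
    · obtain ⟨x', y', R', k', hp', _⟩ := h1
      have := hp'.length_eq
      simp at this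
      omega
  | succ N ih =>
    intro F t hN hZ hr
    rcases Relation.ReflTransGen.cases_head hr with h1 | ⟨F', h1, h2⟩
    · rw [h1]
      simp
    · obtain ⟨x', y', R', k', hp', hov', hmax', rfl⟩ := h1
      have hk : k' = 0 := by
        obtain ⟨u, hu, h3, h4⟩ := hov'.1
        rw [← hu, (hZ x' y' R' hp').1 u h3 h4]
        rfl
      subst hk
      have e : x'.take (x'.length - 0) ++ y' = x' ++ y' := by
        rw [Nat.sub_zero, List.take_length]
      rw [e] at h2
      have h5 := ih _ t (by
        have := hp'.length_eq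
        simp at this
        simp
        omega) (zero_merge (zero_perm hp' hZ)) h2
      rw [h5, (hp'.map List.length).sum_eq]
      simp
      omega

theorem all_zero {n : ℕ} {L : List (List ℕ)} (hnd : L.Nodup) (hf : free L = true)
    (ho : only L [] [] 0 = true) (hn : (L.map List.length).sum = n) : All n L := by
  intro F t hF hr
  have hZ : Zero L := by
    intro z w R hp
    have hz : z ∈ L := hp.mem_iff.2 List.mem_cons_self
    have hw : w ∈ L := hp.mem_iff.2 (List.mem_cons_of_mem _ List.mem_cons_self)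
    have hne : z ≠ w := by
      intro h
      have hnd' := hp.nodup_iff.1 hnd
      rw [List.nodup_cons] at hnd'
      exact hnd'.1 (by rw [h]; exact List.mem_cons_self)
    refine ⟨fun u h1 h2 => ?_, fun h1 => hne (free_spec hf hz hw h1)⟩
    have := only_spec ho hz hw hne (fun h => hne (h.1.trans h.2.symm)) h1 h2
    exact List.length_eq_zero_iff.1 (by omega)
  rw [zero_run _ F t rfl (zero_perm hF.symm hZ) hr, (hF.map List.length).sum_eq, hn]

end Vale.Agent.P333.H354
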