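import Vale.Agent.P333.H354.TieData

set_option autoImplicit false

namespace Vale.Agent.P333.H354.T1

theorem step2 {n : ℕ} (h : All n
    [m2, m1, s0, s1, s2, s3, s7, s8, s9, s10, s11, s12, s13, s14, s15, s16]) :
    All n [m1, m0, s0, s1, s2, s3, s4, s7, s8, s9, s10, s11, s12, s13, s14, s15, s16] :=
  all_step s4 m0 m2 [m1, s0, s1, s2, s3, s7, s8, s9, s10, s11, s12, s13, s14, s15, s16] 180
    ((List.perm_middle (l₁ := [m1, m0, s0, s1, s2, s3]) (a := s4)
      (l₂ := [s7, s8, s9, s10, s11, s12, s13, s14, s15, s16])).trans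
      ((List.perm_middle (l₁ := [m1]) (a := m0)
      (l₂ := [s0, s1, s2, s3, s7, s8, s9, s10, s11, s12, s13, s14, s15, s16])).cons s4))
    (by decide +kernel) (by decide +kernel) (by decide +kernel) (by decide +kernel)
    (by decide +kernel) (by decide +kernel) h

theorem step4 {n : ℕ} (h : All n
    [m4, m3, m1, s0, s1, s2, s7, s8, s9, s10, s11, s12, s13, s14]) :
    All n [m3, m2, m1, s0, s1, s2, s3, s7, s8, s9, s10, s11, s12, s13, s14] :=
  all_step s3 m2 m4 [m3, m1, s0, s1, s2, s7, s8, s9, s10, s11, s12, s13, s14] 171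
    ((List.perm_middle (l₁ := [m3, m2, m1, s0, s1, s2]) (a := s3)
      (l₂ := [s7, s8, s9, s10, s11, s12, s13, s14])).trans
      ((List.perm_middle (l₁ := [m3]) (a := m2)
      (l₂ := [m1, s0, s1, s2, s7, s8, s9, s10, s11, s12, s13, s14])).cons s3))
    (by decide +kernel) (by decide +kernel) (by decide +kernel) (by decide +kernel)
    (by decide +kernel) (by decide +kernel) h

theorem step7 {n : ℕ} (h : All n
    [m7, m6, m5, m4, m3, m1, s0, s7, s8, s11, s12]) :
    All n [m6, m5, m4, m3, m1, s0, s7, s8, s9, s10, s11, s12] :=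
  all_step s9 s10 m7 [m6, m5, m4, m3, m1, s0, s7, s8, s11, s12] 166
    ((List.perm_middle (l₁ := [m6, m5, m4, m3, m1, s0, s7, s8]) (a := s9)
      (l₂ := [s10, s11, s12])).trans
      ((List.perm_middle (l₁ := [m6, m5, m4, m3, m1, s0, s7, s8]) (a := s10)
      (l₂ := [s11, s12])).cons s9))
    (by decide +kernel) (by decide +kernel) (by decide +kernel) (by decide +kernel)
    (by decide +kernel) (by decide +kernel) h

theorem step9 {n : ℕ} (h : All n
    [m9, m8, m7, m5, m3, m1, s0, s7, s8]) :
    All n [m8, m7, m5, m3, m1, s0, s7, s8, s11, s12] :=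
  all_step s11 s12 m9 [m8, m7, m5, m3, m1, s0, s7, s8] 163
    ((List.perm_middle (l₁ := [m8, m7, m5, m3, m1, s0, s7, s8]) (a := s11)
      (l₂ := [s12])).trans
      ((List.perm_middle (l₁ := [m8, m7, m5, m3, m1, s0, s7, s8]) (a := s12)
      (l₂ := [])).cons s11))
    (by decide +kernel) (by decide +kernel) (by decide +kernel) (by decide +kernel)
    (by decide +kernel) (by decide +kernel) h

end Vale.Agent.P333.H354.T1
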