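import Vale.Agent.P333.H354.TieData

set_option autoImplicit false

namespace Vale.Agent.P333.H354.T1

theorem step5 {n : ℕ} (h : All n
    [m5, m4, m3, m1, s0, s1, s2, s7, s8, s9, s10, s11, s12]) :
    All n [m4, m3, m1, s0, s1, s2, s7, s8, s9, s10, s11, s12, s13, s14] :=
  all_step s13 s14 m5 [m4, m3, m1, s0, s1, s2, s7, s8, s9, s10, s11, s12] 169
    ((List.perm_middle (l₁ := [m4, m3, m1, s0, s1, s2, s7, s8, s9, s10, s11, s12]) (a := s13)
      (l₂ := [s14])).trans
      ((List.perm_middle (l₁ := [m4, m3, m1, s0, s1, s2, s7, s8, s9, s10, s11, s12]) (a := s14)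
      (l₂ := [])).cons s13))
    (by decide +kernel) (by decide +kernel) (by decide +kernel) (by decide +kernel)
    (by decide +kernel) (by decide +kernel) h

theorem step10 {n : ℕ} (h : All n
    [m10, m9, m7, m5, m3, m1, s7, s8]) :
    All n [m9, m8, m7, m5, m3, m1, s0, s7, s8] :=
  all_step s0 m8 m10 [m9, m7, m5, m3, m1, s7, s8] 140
    ((List.perm_middle (l₁ := [m9, m8, m7, m5, m3, m1]) (a := s0)
      (l₂ := [s7, s8])).trans
      ((List.perm_middle (l₁ := [m9]) (a := m8)
      (l₂ := [m7, m5, m3, m1, s7, s8])).cons s0))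
    (by decide +kernel) (by decide +kernel) (by decide +kernel) (by decide +kernel)
    (by decide +kernel) (by decide +kernel) h

theorem step13 {n : ℕ} (h : All n
    [m13, m12, m11, m10, m1]) :
    All n [m12, m11, m10, m5, m3, m1] :=
  all_step m3 m5 m13 [m12, m11, m10, m1] 28
    ((List.perm_middle (l₁ := [m12, m11, m10, m5]) (a := m3)
      (l₂ := [m1])).trans
      ((List.perm_middle (l₁ := [m12, m11, m10]) (a := m5)
      (l₂ := [m1])).cons m3))
    (by decide +kernel) (by decide +kernel) (by decide +kernel) (by decide +kernel)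
    (by decide +kernel) (by decide +kernel) h

theorem step14 {n : ℕ} (h : All n
    [m14, m13, m10, m1]) :
    All n [m13, m12, m11, m10, m1] :=
  all_step m12 m11 m14 [m13, m10, m1] 12
    ((List.perm_middle (l₁ := [m13]) (a := m12)
      (l₂ := [m11, m10, m1])).trans
      ((List.perm_middle (l₁ := [m13]) (a := m11)
      (l₂ := [m10, m1])).cons m12))
    (by decide +kernel) (by decide +kernel) (by decide +kernel) (by decide +kernel)
    (by decide +kernel) (by decide +kernel) h

end Vale.Agent.P333.H354.T1
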