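import Vale.Agent.P333.H354.TieData

set_option autoImplicit false

namespace Vale.Agent.P333.H354.T1

theorem step0 {n : ℕ} (h : All n
    [m0, s0, s1, s2, s3, s4, s7, s8, s9, s10, s11, s12, s13, s14, s15, s16, s17, s18]) :
    All n [s0, s1, s2, s3, s4, s5, s6, s7, s8, s9, s10, s11, s12, s13, s14, s15, s16, s17, s18] :=
  all_step s5 s6 m0 [s0, s1, s2, s3, s4, s7, s8, s9, s10, s11, s12, s13, s14, s15, s16, s17, s18] 184
    ((List.perm_middle (l₁ := [s0, s1, s2, s3, s4]) (a := s5)
      (l₂ := [s6, s7, s8, s9, s10, s11, s12, s13, s14, s15, s16, s17, s18])).trans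
      ((List.perm_middle (l₁ := [s0, s1, s2, s3, s4]) (a := s6)
      (l₂ := [s7, s8, s9, s10, s11, s12, s13, s14, s15, s16, s17, s18])).cons s5))
    (by decide +kernel) (by decide +kernel) (by decide +kernel) (by decide +kernel)
    (by decide +kernel) (by decide +kernel) h

theorem step1 {n : ℕ} (h : All n
    [m1, m0, s0, s1, s2, s3, s4, s7, s8, s9, s10, s11, s12, s13, s14, s15, s16]) :
    All n [m0, s0, s1, s2, s3, s4, s7, s8, s9, s10, s11, s12, s13, s14, s15, s16, s17, s18] :=
  all_step s17 s18 m1 [m0, s0, s1, s2, s3, s4, s7, s8, s9, s10, s11, s12, s13, s14, s15, s16] 182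
    ((List.perm_middle (l₁ := [m0, s0, s1, s2, s3, s4, s7, s8, s9, s10, s11, s12, s13, s14, s15, s16]) (a := s17)
      (l₂ := [s18])).trans
      ((List.perm_middle (l₁ := [m0, s0, s1, s2, s3, s4, s7, s8, s9, s10, s11, s12, s13, s14, s15, s16]) (a := s18)
      (l₂ := [])).cons s17))
    (by decide +kernel) (by decide +kernel) (by decide +kernel) (by decide +kernel)
    (by decide +kernel) (by decide +kernel) h

theorem step6 {n : ℕ} (h : All n
    [m6, m5, m4, m3, m1, s0, s7, s8, s9, s10, s11, s12]) :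
    All n [m5, m4, m3, m1, s0, s1, s2, s7, s8, s9, s10, s11, s12] :=
  all_step s1 s2 m6 [m5, m4, m3, m1, s0, s7, s8, s9, s10, s11, s12] 168
    ((List.perm_middle (l₁ := [m5, m4, m3, m1, s0]) (a := s1)
      (l₂ := [s2, s7, s8, s9, s10, s11, s12])).trans
      ((List.perm_middle (l₁ := [m5, m4, m3, m1, s0]) (a := s2)
      (l₂ := [s7, s8, s9, s10, s11, s12])).cons s1))
    (by decide +kernel) (by decide +kernel) (by decide +kernel) (by decide +kernel)
    (by decide +kernel) (by decide +kernel) h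

theorem step11 {n : ℕ} (h : All n
    [m11, m10, m9, m7, m5, m3, m1]) :
    All n [m10, m9, m7, m5, m3, m1, s7, s8] :=
  all_step s8 s7 m11 [m10, m9, m7, m5, m3, m1] 139
    ((List.perm_middle (l₁ := [m10, m9, m7, m5, m3, m1, s7]) (a := s8)
      (l₂ := [])).trans
      ((List.perm_middle (l₁ := [m10, m9, m7, m5, m3, m1]) (a := s7)
      (l₂ := [])).cons s8))
    (by decide +kernel) (by decide +kernel) (by decide +kernel) (by decide +kernel)
    (by decide +kernel) (by decide +kernel) h

end Vale.Agent.P333.H354.T1
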