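import Vale.Agent.P333.H354.TieStepA
import Vale.Agent.P333.H354.TieStepB
import Vale.Agent.P333.H354.TieStepC
import Vale.Agent.P333.H354.TieStepD
import Vale.Agent.P333.H705.GrG

set_option autoImplicit false

/-! P333: every greedy superstring of the family is longer than twice the optimum. -/

namespace Vale.Agent.P333.H354.T1

theorem free_fam : free fam = true := by decide +kernel

theorem nodup_fam : fam.Nodup := by decide +kernel

theorem reduced : Greedy.Reduced fam fam :=
  ⟨nodup_fam, fun _ => ⟨fun h => ⟨h, fun _ ht hst => free_spec free_fam h ht hst⟩, fun h => h.1⟩⟩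

theorem last : All 1810 [m14, m13, m10, m1] :=
  all_zero (by decide +kernel) (by decide +kernel) (by decide +kernel) (by decide +kernel)

theorem all_fam : All 1810 fam :=
  step0 (step1 (step2 (step3 (step4 (step5 (step6 (step7 (step8 (step9 (step10 (step11
  (step12 (step13 (step14 last))))))))))))))

theorem length_out {t : List ℕ} (h : Greedy.Output fam t) : t.length = 1810 := by
  obtain ⟨F, hF, hr⟩ := h
  refine all_fam F t ?_ hr
  refine (List.perm_ext_iff_of_nodup hF.1 nodup_fam).2 fun s => ?_
  rw [hF.2 s, ← reduced.2 s]

theorem opt_le : opt fam ≤ 891 := by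
  have h1 : IsSuperstring fam sup := by
    have h2 : (fam.all fun s => isInf s sup) = true := by decide +kernel
    rw [List.all_eq_true] at h2
    intro s hs
    exact (isInf_iff s sup).1 (h2 s hs)
  exact Nat.sInf_le ⟨sup, h1, by decide +kernel⟩

/-- **The greedy superstring conjecture is false, for every rule for the ties.** -/
theorem main : ∃ S : List (List ℕ), Greedy.Reduced S S ∧ (∃ t, Greedy.Output S t) ∧
    ∀ t, Greedy.Output S t → 2 * opt S < t.length ∧ 1810 * opt S ≤ 891 * t.length := by
  refine ⟨fam, reduced, H705.Gr.exists_output (by simp [fam]), fun t ht => ?_⟩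
  have h1 := opt_le
  rw [length_out ht]
  omega

end Vale.Agent.P333.H354.T1
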