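import Vale.Agent.P333.H354.TieData

set_option autoImplicit false

namespace Vale.Agent.P333.H354.T1

theorem step3 {n : ℕ} (h : All n
    [m3, m2, m1, s0, s1, s2, s3, s7, s8, s9, s10, s11, s12, s13, s14]) :
    All n [m2, m1, s0, s1, s2, s3, s7, s8, s9, s10, s11, s12, s13, s14, s15, s16] :=
  all_step s15 s16 m3 [m2, m1, s0, s1, s2, s3, s7, s8, s9, s10, s11, s12, s13, s14] 178
    ((List.perm_middle (l₁ := [m2, m1, s0, s1, s2, s3, s7, s8, s9, s10, s11, s12, s13, s14]) (a := s15)
      (l₂ := [s16])).trans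
      ((List.perm_middle (l₁ := [m2, m1, s0, s1, s2, s3, s7, s8, s9, s10, s11, s12, s13, s14]) (a := s16)
      (l₂ := [])).cons s15))
    (by decide +kernel) (by decide +kernel) (by decide +kernel) (by decide +kernel)
    (by decide +kernel) (by decide +kernel) h

theorem step8 {n : ℕ} (h : All n
    [m8, m7, m5, m3, m1, s0, s7, s8, s11, s12]) :
    All n [m7, m6, m5, m4, m3, m1, s0, s7, s8, s11, s12] :=
  all_step m6 m4 m8 [m7, m5, m3, m1, s0, s7, s8, s11, s12] 165
    ((List.perm_middle (l₁ := [m7]) (a := m6)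
      (l₂ := [m5, m4, m3, m1, s0, s7, s8, s11, s12])).trans
      ((List.perm_middle (l₁ := [m7, m5]) (a := m4)
      (l₂ := [m3, m1, s0, s7, s8, s11, s12])).cons m6))
    (by decide +kernel) (by decide +kernel) (by decide +kernel) (by decide +kernel)
    (by decide +kernel) (by decide +kernel) h

theorem step12 {n : ℕ} (h : All n
    [m12, m11, m10, m5, m3, m1]) :
    All n [m11, m10, m9, m7, m5, m3, m1] :=
  all_step m9 m7 m12 [m11, m10, m5, m3, m1] 32
    ((List.perm_middle (l₁ := [m11, m10]) (a := m9)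
      (l₂ := [m7, m5, m3, m1])).trans
      ((List.perm_middle (l₁ := [m11, m10]) (a := m7)
      (l₂ := [m5, m3, m1])).cons m9))
    (by decide +kernel) (by decide +kernel) (by decide +kernel) (by decide +kernel)
    (by decide +kernel) (by decide +kernel) h

end Vale.Agent.P333.H354.T1
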